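import Vale.Agent.P074.Final

/-- For every `d ≥ 2` the exponent `1/3` is admissible and every admissible exponent is at most
`1/3`; that is, `α*_d = 1/3` and the supremum is attained. -/
theorem Vale.Agent.Results.P074.Main.result :
    ∀ d : ℕ, 2 ≤ d → IsGreatest {α : ℝ | Vale.Agent.P074.Admissible d α} (1 / 3) :=
  Vale.Agent.P074.main_final
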