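import Vale.Agent.P074.Upper

/-- Every admissible stability exponent of quadratic optimal transport maps (in dimension
`d ≥ 2`) is at most `1/3`. -/
theorem Vale.Agent.Results.P074.UpperBound.result :
    ∀ d : ℕ, 2 ≤ d → ∀ α : ℝ, Vale.Agent.P074.Admissible d α → α ≤ 1 / 3 :=
  Vale.Agent.P074.upper
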